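import Vale.Agent.P267.H399.Calc2

/-!
# P267, package XA-FRAMES (helper181), part 2: extension by zero from a chart

`ext0 κ e g`, `ext1 κ e a`, `ext2 κ e b`: the objects on `X` with components `g`, `a`, `b` in the
chart `e`, zero outside `e.source`.
-/

open Filter Topology Set Metric
open scoped ContDiff Manifold ComplexConjugate

noncomputable section

namespace Vale.Agent.P267.H181

open FL

variable {X : Type*} [TopologicalSpace X] [ChartedSpace C2 X]
variable {V : Type*} [NormedAddCommGroup V] [NormedSpace ℂ V]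

open Classical in
/-- the `K^κ ⊗ V`-valued function with component `g` in the chart `e`, extended by zero -/
def ext0 (κ : ℤ) (e : Ch X) (g : C2 → V) (y : X) : V :=
  if y ∈ e.source then ((jac e y).det ^ κ)⁻¹ • g (e y) else 0

open Classical in
/-- the `(0,1)`-form with components `a` in the chart `e`, extended by zero -/
def ext1 (κ : ℤ) (e : Ch X) (a : C2 → Fin 2 → V) (y : X) (p : Fin 2) : V :=
  if y ∈ e.source then ((jac e y).det ^ κ)⁻¹ • ∑ i, conj ((jac e y)⁻¹ i p) • a (e y) i else 0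

open Classical in
/-- the `(0,2)`-form with component `b` in the chart `e`, extended by zero -/
def ext2 (κ : ℤ) (e : Ch X) (b : C2 → V) (y : X) : V :=
  if y ∈ e.source then ((jac e y).det ^ κ)⁻¹ • (conj (jac e y).det)⁻¹ • b (e y) else 0

theorem ext0_source {κ : ℤ} {e : Ch X} {g : C2 → V} {y : X} (hy : y ∈ e.source) :
    ext0 κ e g y = ((jac e y).det ^ κ)⁻¹ • g (e y) := by rw [ext0, if_pos hy]

theorem ext0_source_zero {e : Ch X} {g : C2 → V} {y : X} (hy : y ∈ e.source) :
    ext0 0 e g y = g (e y) := by rw [ext0_source hy]; simp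

theorem ext0_not_source {κ : ℤ} {e : Ch X} {g : C2 → V} {y : X} (hy : y ∉ e.source) :
    ext0 κ e g y = 0 := by rw [ext0, if_neg hy]

theorem ext1_not_source {κ : ℤ} {e : Ch X} {a : C2 → Fin 2 → V} {y : X} (hy : y ∉ e.source) :
    ext1 κ e a y = 0 := by
  funext p
  rw [ext1, if_neg hy]
  rfl

theorem ext2_not_source {κ : ℤ} {e : Ch X} {b : C2 → V} {y : X} (hy : y ∉ e.source) :
    ext2 κ e b y = 0 := by rw [ext2, if_neg hy]

omit [ChartedSpace C2 X] in
/-- the extension vanishes off the image of the support -/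
theorem eq_zero_of_notMem {e : Ch X} {K : Set C2} {y : X} (hy : y ∈ e.source)
    (h : y ∉ e.symm '' K) : e y ∉ K := fun h2 => h ⟨e y, h2, e.left_inv hy⟩

theorem ext0_eq_zero {κ : ℤ} {e : Ch X} {g : C2 → V} {K : Set C2} (h0 : ∀ z ∉ K, g z = 0) {y : X}
    (hy : y ∉ e.symm '' K) : ext0 κ e g y = 0 := by
  by_cases h : y ∈ e.source
  · rw [ext0_source h, h0 _ (eq_zero_of_notMem h hy), smul_zero]
  · exact ext0_not_source h

theorem ext1_eq_zero {κ : ℤ} {e : Ch X} {a : C2 → Fin 2 → V} {K : Set C2}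
    (h0 : ∀ z ∉ K, a z = 0) {y : X} (hy : y ∉ e.symm '' K) : ext1 κ e a y = 0 := by
  by_cases h : y ∈ e.source
  · funext p
    rw [ext1, if_pos h, h0 _ (eq_zero_of_notMem h hy)]
    simp
  · exact ext1_not_source h

theorem ext2_eq_zero {κ : ℤ} {e : Ch X} {b : C2 → V} {K : Set C2} (h0 : ∀ z ∉ K, b z = 0) {y : X}
    (hy : y ∉ e.symm '' K) : ext2 κ e b y = 0 := by
  by_cases h : y ∈ e.source
  · rw [ext2, if_pos h, h0 _ (eq_zero_of_notMem h hy), smul_zero, smul_zero]
  · exact ext2_not_source h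

variable [IsManifold 𝓘(ℂ, C2) ω X]

theorem loc0_ext0 {κ : ℤ} {e : Ch X} (he : e ∈ atlas C2 X) {g : C2 → V} {z : C2}
    (hz : z ∈ e.target) : loc0 κ e (ext0 κ e g) z = g z := by
  have hs := e.map_target hz
  rw [loc0, ext0_source hs, e.right_inv hz, smul_smul, mul_inv_cancel₀, one_smul]
  exact zpow_ne_zero _ (jac_det_ne_zero he hs)

theorem loc1_ext1 {κ : ℤ} {e : Ch X} (he : e ∈ atlas C2 X) {a : C2 → Fin 2 → V} {z : C2}
    (hz : z ∈ e.target) : loc1 κ e (ext1 κ e a) z = a z := by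
  have hs := e.map_target hz
  have hd := jac_det_ne_zero he hs
  funext i
  have h1 : (jac e (e.symm z))⁻¹ * jac e (e.symm z) = 1 :=
    Matrix.nonsing_inv_mul _ (isUnit_iff_ne_zero.2 hd)
  have h2 : ∀ k, ∑ p, (jac e (e.symm z))⁻¹ k p * jac e (e.symm z) p i = (1 : Matrix _ _ ℂ) k i := by
    intro k
    rw [← h1, Matrix.mul_apply]
  have h3 : ∀ k, ∑ p, conj (jac e (e.symm z) p i) * conj ((jac e (e.symm z))⁻¹ k p) =
      (1 : Matrix (Fin 2) (Fin 2) ℂ) k i := by
    intro k
    have := congrArg conj (h2 k)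
    rw [map_sum] at this
    simp only [map_mul] at this
    rw [Finset.sum_congr rfl fun p _ => mul_comm _ _, this]
    by_cases hki : k = i <;> simp [Matrix.one_apply, hki]
  have h4 : (jac e (e.symm z)).det ^ κ ≠ 0 := zpow_ne_zero _ hd
  simp only [loc1, ext1, if_pos hs, e.right_inv hz]
  have h5 : ∀ p, conj (jac e (e.symm z) p i) • ((jac e (e.symm z)).det ^ κ)⁻¹ •
      ∑ k, conj ((jac e (e.symm z))⁻¹ k p) • a z k =
      ((jac e (e.symm z)).det ^ κ)⁻¹ • ∑ k, (conj (jac e (e.symm z) p i) *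
        conj ((jac e (e.symm z))⁻¹ k p)) • a z k := by
    intro p
    rw [smul_comm, Finset.smul_sum]
    simp only [smul_smul]
  simp only [h5]
  rw [← Finset.smul_sum, smul_smul, mul_inv_cancel₀ h4, one_smul, Finset.sum_comm]
  simp only [← Finset.sum_smul, h3]
  simp [Matrix.one_apply]

theorem loc2_ext2 {κ : ℤ} {e : Ch X} (he : e ∈ atlas C2 X) {b : C2 → V} {z : C2}
    (hz : z ∈ e.target) : loc2 κ e (ext2 κ e b) z = b z := by
  have hs := e.map_target hz
  have hd := jac_det_ne_zero he hs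
  have hc : conj (jac e (e.symm z)).det ≠ 0 := by simpa using hd
  rw [loc2, ext2, if_pos hs, e.right_inv hz, smul_comm (conj _) (_⁻¹), smul_smul, smul_smul,
    mul_inv_cancel₀ (zpow_ne_zero _ hd), one_mul, smul_smul, mul_inv_cancel₀ hc, one_smul]

/-- components determine the form -/
theorem loc1_inj {κ : ℤ} {e : Ch X} (he : e ∈ atlas C2 X) {a a' : X → Fin 2 → V} {x : X}
    (hx : x ∈ e.source) (h : loc1 κ e a (e x) = loc1 κ e a' (e x)) : a x = a' x := by
  have key : ∀ b : X → Fin 2 → V, ∀ q, b x q =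
      ((jac e x).det ^ κ)⁻¹ • ∑ i, conj ((jac e x)⁻¹ i q) • loc1 κ e b (e x) i := by
    intro b q
    have hd := jac_det_ne_zero he hx
    have h1 : jac e x * (jac e x)⁻¹ = 1 :=
      Matrix.mul_nonsing_inv _ (isUnit_iff_ne_zero.2 hd)
    have h3 : ∀ p, ∑ i, conj ((jac e x)⁻¹ i q) * conj (jac e x p i) =
        (1 : Matrix (Fin 2) (Fin 2) ℂ) p q := by
      intro p
      have h2 : ∑ i, jac e x p i * (jac e x)⁻¹ i q = (1 : Matrix _ _ ℂ) p q := by
        rw [← h1, Matrix.mul_apply]
      have := congrArg conj h2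
      rw [map_sum] at this
      simp only [map_mul] at this
      rw [Finset.sum_congr rfl fun p _ => mul_comm _ _, this]
      by_cases hki : p = q <;> simp [Matrix.one_apply, hki]
    simp only [loc1_source hx]
    have h5 : ∀ i, conj ((jac e x)⁻¹ i q) • (jac e x).det ^ κ • ∑ p, conj (jac e x p i) • b x p =
        (jac e x).det ^ κ • ∑ p, (conj ((jac e x)⁻¹ i q) * conj (jac e x p i)) • b x p := by
      intro i
      rw [smul_comm, Finset.smul_sum]
      simp only [smul_smul]
    simp only [h5]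
    rw [← Finset.smul_sum, smul_smul, inv_mul_cancel₀ (zpow_ne_zero _ hd), one_smul,
      Finset.sum_comm]
    simp only [← Finset.sum_smul, h3]
    simp [Matrix.one_apply]
  funext q
  rw [key a q, key a' q, h]

theorem loc2_inj {κ : ℤ} {e : Ch X} (he : e ∈ atlas C2 X) {b b' : X → V} {x : X}
    (hx : x ∈ e.source) (h : loc2 κ e b (e x) = loc2 κ e b' (e x)) : b x = b' x := by
  have hd := jac_det_ne_zero he hx
  have hc : conj (jac e x).det ≠ 0 := by simpa using hd
  rw [loc2_source hx, loc2_source hx] at h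
  exact smul_right_injective _ hc (smul_right_injective _ (zpow_ne_zero κ hd) h)

theorem loc0_inj {κ : ℤ} {e : Ch X} (he : e ∈ atlas C2 X) {s s' : X → V} {x : X}
    (hx : x ∈ e.source) (h : loc0 κ e s (e x) = loc0 κ e s' (e x)) : s x = s' x := by
  have hd := jac_det_ne_zero he hx
  rw [loc0_source hx, loc0_source hx] at h
  exact smul_right_injective _ (zpow_ne_zero κ hd) h

section reg

variable [T2Space X] {n : WithTop ℕ∞} {κ : ℤ} {e : Ch X} {K : Set C2}

omit [ChartedSpace C2 X] [IsManifold 𝓘(ℂ, C2) ω X] in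
theorem isClosed_symm_image (hK : IsCompact K) (hKe : K ⊆ e.target) :
    IsClosed (e.symm '' K) :=
  (hK.image_of_continuousOn (e.continuousOn_symm.mono hKe)).isClosed

omit [ChartedSpace C2 X] [IsManifold 𝓘(ℂ, C2) ω X] [T2Space X] in
theorem symm_image_subset (hKe : K ⊆ e.target) : e.symm '' K ⊆ e.source := by
  rintro _ ⟨z, hz, rfl⟩
  exact e.map_target (hKe hz)

/-- smoothness of the extension by zero -/
theorem at0_ext0 (he : e ∈ atlas C2 X) (hK : IsCompact K) (hKe : K ⊆ e.target) {g : C2 → V}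
    (h0 : ∀ z ∉ K, g z = 0) (hg : ∀ z ∈ e.target, ContDiffAt ℝ n g z) (x : X) :
    At0 n κ (ext0 κ e g) x := by
  by_cases hx : x ∈ e.source
  · refine at0_of_chart he hx ?_
    refine (hg _ (e.map_source hx)).congr_of_eventuallyEq ?_
    filter_upwards [e.open_target.mem_nhds (e.map_source hx)] with z hz
    exact loc0_ext0 he hz
  · refine at0_zero.congr ?_
    have h1 : x ∉ e.symm '' K := fun h => hx (symm_image_subset hKe h)
    filter_upwards [(isClosed_symm_image hK hKe).isOpen_compl.mem_nhds h1] with y hy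
    exact ext0_eq_zero h0 hy

theorem reg0_ext0 (he : e ∈ atlas C2 X) (hK : IsCompact K) (hKe : K ⊆ e.target) {g : C2 → V}
    (h0 : ∀ z ∉ K, g z = 0) (hg : ∀ z ∈ e.target, ContDiffAt ℝ n g z) :
    Reg0 n κ (ext0 κ e g) := reg0_iff_at.2 (at0_ext0 he hK hKe h0 hg)

theorem reg1_ext1 (he : e ∈ atlas C2 X) (hK : IsCompact K) (hKe : K ⊆ e.target)
    {a : C2 → Fin 2 → V} (h0 : ∀ z ∉ K, a z = 0) (hg : ∀ z ∈ e.target, ContDiffAt ℝ n a z) :
    Reg1 n κ (ext1 κ e a) := by
  refine reg1_iff_at.2 fun x => ?_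
  by_cases hx : x ∈ e.source
  · refine at1_of_chart he hx ?_
    refine (hg _ (e.map_source hx)).congr_of_eventuallyEq ?_
    filter_upwards [e.open_target.mem_nhds (e.map_source hx)] with z hz
    exact loc1_ext1 he hz
  · refine (at1_zero (V := V)).congr ?_
    have h1 : x ∉ e.symm '' K := fun h => hx (symm_image_subset hKe h)
    filter_upwards [(isClosed_symm_image hK hKe).isOpen_compl.mem_nhds h1] with y hy
    exact ext1_eq_zero h0 hy

theorem reg2_ext2 (he : e ∈ atlas C2 X) (hK : IsCompact K) (hKe : K ⊆ e.target) {b : C2 → V}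
    (h0 : ∀ z ∉ K, b z = 0) (hg : ∀ z ∈ e.target, ContDiffAt ℝ n b z) :
    Reg2 n κ (ext2 κ e b) := by
  refine reg2_iff_at.2 fun x => ?_
  by_cases hx : x ∈ e.source
  · refine at2_of_chart he hx ?_
    refine (hg _ (e.map_source hx)).congr_of_eventuallyEq ?_
    filter_upwards [e.open_target.mem_nhds (e.map_source hx)] with z hz
    exact loc2_ext2 he hz
  · refine at2_zero.congr ?_
    have h1 : x ∉ e.symm '' K := fun h => hx (symm_image_subset hKe h)
    filter_upwards [(isClosed_symm_image hK hKe).isOpen_compl.mem_nhds h1] with y hy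
    exact ext2_eq_zero h0 hy

omit [IsManifold 𝓘(ℂ, C2) ω X] in
theorem hasCompactSupport_ext0 (hK : IsCompact K) (hKe : K ⊆ e.target) {g : C2 → V}
    (h0 : ∀ z ∉ K, g z = 0) : HasCompactSupport (ext0 κ e g) :=
  HasCompactSupport.intro (hK.image_of_continuousOn (e.continuousOn_symm.mono hKe))
    fun _ hy => ext0_eq_zero h0 hy

omit [IsManifold 𝓘(ℂ, C2) ω X] in
theorem tsupport_ext0_subset (hK : IsCompact K) (hKe : K ⊆ e.target) {g : C2 → V}
    (h0 : ∀ z ∉ K, g z = 0) : tsupport (ext0 κ e g) ⊆ e.symm '' K := by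
  refine closure_minimal ?_ (isClosed_symm_image hK hKe)
  intro y hy
  by_contra h
  exact hy (ext0_eq_zero h0 h)

end reg

/-- `∂̄` of an object given in a chart near a point -/
theorem dbar0_of_chart {κ : ℤ} {e : Ch X} (he : e ∈ atlas C2 X) {s : X → V} {x : X}
    (hx : x ∈ e.source) {a : X → Fin 2 → V}
    (hd : DifferentiableAt ℝ (loc0 κ e s) (e x))
    (h : ∀ i, dzb i (loc0 κ e s) (e x) = loc1 κ e a (e x) i) : dbar0 κ s x = a x := by
  refine loc1_inj (κ := κ) he hx ?_
  funext i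
  rw [loc1_dbar0 he (e.map_source hx) hd i, h]

end Vale.Agent.P267.H181
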