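import Vale.Agent.P267.H439.DivLoc
import Vale.Agent.P267.H399.Wirt

/-!
# P267, package XA-FRAMES (helper181), part 1: the `∂̄`-lemma on polydiscs with sup bounds

`C2 = Fin 2 → ℂ` with the sup norm, so `ball c r` is a polydisc.

* `exists_dbar_one`: `∂̄φ = α` for a closed smooth `(0,1)`-form on `ball c R`, solved on `ball c r`
  with `|φ| ≤ C(r,R) sup|α|`.
* `exists_dbar_two`: `∂̄a = b` for a smooth `(0,2)`-form, with `|a| ≤ C(r,R) sup|b|`.
-/

open Filter Topology MeasureTheory Set Metric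
open scoped ContDiff Real ComplexConjugate

noncomputable section

namespace Vale.Agent.P267.H181

open FL H439

/-- split off the coordinate `j` -/
def spl (j : Fin 2) : C2 ≃ₗ[ℂ] ℂ × ℂ where
  toFun z := (z (1 - j), z j)
  invFun p i := if i = j then p.2 else p.1
  map_add' x y := rfl
  map_smul' c x := rfl
  left_inv z := by
    funext i
    by_cases h : i = j
    · simp [h]
    · simp only [h, if_false]
      congr 1
      revert h; revert i j; decide
  right_inv p := by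
    have : (1 : Fin 2) - j ≠ j := by revert j; decide
    simp [this]

/-- split off the coordinate `j` -/
def sp (j : Fin 2) : C2 ≃L[ℂ] ℂ × ℂ := (spl j).toContinuousLinearEquiv

theorem sp_apply (j : Fin 2) (z : C2) : sp j z = (z (1 - j), z j) := rfl

theorem sp_symm_apply (j : Fin 2) (p : ℂ × ℂ) (i : Fin 2) :
    (sp j).symm p i = if i = j then p.2 else p.1 := rfl

theorem other_ne (j : Fin 2) : (1 : Fin 2) - j ≠ j := by revert j; decide

theorem sp_single (j : Fin 2) (c : ℂ) : sp j (Pi.single j c) = (0, c) := by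
  rw [sp_apply]
  simp [Pi.single_eq_of_ne (other_ne j)]

/-- Cauchy transform in the variable `z_j` -/
def T (j : Fin 2) (g : C2 → ℂ) (z : C2) : ℂ := cau2 (fun p => g ((sp j).symm p)) (sp j z)

theorem T_eq (j : Fin 2) (g : C2 → ℂ) (z : C2) :
    T j g z = ∫ t : ℂ, ker1 t * g (z - Pi.single j t) := by
  unfold T cau2
  rw [convolution_def]
  congr 1
  funext t
  simp only [ContinuousLinearMap.mul_apply']
  congr 2
  have : z - Pi.single j t = (sp j).symm (sp j (z - Pi.single j t)) := by simp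
  rw [this, map_sub, sp_single, sp_apply]
  simp

/-- `g` vanishes for `|z_j| > ρ` -/
def SuppIn (j : Fin 2) (ρ : ℝ) (g : C2 → ℂ) : Prop := ∀ z : C2, ρ < ‖z j‖ → g z = 0

theorem SuppIn.cau {j : Fin 2} {ρ : ℝ} {g : C2 → ℂ} (h : SuppIn j ρ g) :
    ∀ (p x : ℂ), x ∉ closedBall (0 : ℂ) ρ → g ((sp j).symm (p, x)) = 0 := by
  intro p x hx
  apply h
  rw [sp_symm_apply, if_pos rfl]
  simpa using hx

theorem contDiff_sp_symm {n : WithTop ℕ∞} (j : Fin 2) {g : C2 → ℂ} (hg : ContDiff ℝ n g) :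
    ContDiff ℝ n (fun p : ℂ × ℂ => g ((sp j).symm p)) :=
  hg.comp (((sp j).symm : ℂ × ℂ →L[ℂ] C2).restrictScalars ℝ).contDiff

theorem T_contDiff {j : Fin 2} {ρ : ℝ} {g : C2 → ℂ} (hg : ContDiff ℝ ∞ g) (h : SuppIn j ρ g) :
    ContDiff ℝ ∞ (T j g) :=
  (cau2_contDiff (contDiff_sp_symm j hg) (isCompact_closedBall 0 ρ) h.cau).comp
    (((sp j : C2 →L[ℂ] ℂ × ℂ)).restrictScalars ℝ).contDiff

theorem fderiv_T {j : Fin 2} {ρ : ℝ} {g : C2 → ℂ} (hg : ContDiff ℝ ∞ g) (h : SuppIn j ρ g)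
    (z v : C2) : fderiv ℝ (T j g) z v =
      fderiv ℝ (cau2 (fun p => g ((sp j).symm p))) (sp j z) (sp j v) := by
  have h1 := cau2_contDiff (contDiff_sp_symm j hg) (isCompact_closedBall 0 ρ) h.cau
  have h2 : HasFDerivAt (fun z : C2 => sp j z) (((sp j : C2 →L[ℂ] ℂ × ℂ)).restrictScalars ℝ) z :=
    (((sp j : C2 →L[ℂ] ℂ × ℂ)).restrictScalars ℝ).hasFDerivAt
  have h3 := ((h1.differentiable (by simp)) (sp j z)).hasFDerivAt.comp z h2
  have h4 : fderiv ℝ (T j g) z = _ := h3.fderiv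
  rw [h4]
  rfl

theorem fderiv_comp_symm {j : Fin 2} {g : C2 → ℂ} (hg : ContDiff ℝ ∞ g) (p : ℂ × ℂ) (v : C2) :
    fderiv ℝ (fun p => g ((sp j).symm p)) p (sp j v) = fderiv ℝ g ((sp j).symm p) v := by
  have h2 : HasFDerivAt (fun p : ℂ × ℂ => (sp j).symm p)
      (((sp j).symm : ℂ × ℂ →L[ℂ] C2).restrictScalars ℝ) p :=
    (((sp j).symm : ℂ × ℂ →L[ℂ] C2).restrictScalars ℝ).hasFDerivAt
  have h3 := ((hg.differentiable (by simp)) ((sp j).symm p)).hasFDerivAt.comp p h2
  have h4 : fderiv ℝ (fun p => g ((sp j).symm p)) p = _ := h3.fderiv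
  rw [h4]
  simp

/-- derivatives of the transform -/
theorem fderiv_T_apply {j : Fin 2} {ρ : ℝ} {g : C2 → ℂ} (hg : ContDiff ℝ ∞ g) (h : SuppIn j ρ g)
    (z v : C2) : fderiv ℝ (T j g) z v = ∫ t : ℂ, ker1 t * fderiv ℝ g (z - Pi.single j t) v := by
  rw [fderiv_T hg h, fderiv_cau2_apply (contDiff_sp_symm j hg) (isCompact_closedBall 0 ρ) h.cau]
  congr 1
  funext t
  rw [fderiv_comp_symm hg]
  congr 3
  have : z - Pi.single j t = (sp j).symm (sp j (z - Pi.single j t)) := by simp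
  rw [this, map_sub, sp_single, sp_apply]
  simp

theorem SuppIn.fderiv {j : Fin 2} {ρ : ℝ} {g : C2 → ℂ} (h : SuppIn j ρ g) {z : C2}
    (hz : ρ < ‖z j‖) : fderiv ℝ g z = 0 := by
  refine (hasFDerivAt_zero_of_eventually_const 0 ?_).fderiv
  have : ∀ᶠ y : C2 in 𝓝 z, ρ < ‖y j‖ :=
    (continuous_apply j).norm.continuousAt.eventually (isOpen_Ioi.mem_nhds hz)
  filter_upwards [this] with y hy
  exact h y hy

theorem SuppIn.dzb {j : Fin 2} {ρ : ℝ} {g : C2 → ℂ} (h : SuppIn j ρ g) (k : Fin 2) :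
    SuppIn j ρ (dzb k g) := by
  intro z hz
  unfold FL.dzb
  rw [h.fderiv hz]
  simp

theorem integrable_aux {j : Fin 2} {ρ : ℝ} {g : C2 → ℂ} (hg : Continuous g) (h : SuppIn j ρ g)
    (z : C2) : Integrable fun t : ℂ => ker1 t * g (z - Pi.single j t) := by
  have hc : Continuous fun t : ℂ => g (z - Pi.single j t) :=
    hg.comp (continuous_const.sub (continuous_single (A := fun _ : Fin 2 => ℂ) j))
  have hs : HasCompactSupport fun t : ℂ => g (z - Pi.single j t) := by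
    refine HasCompactSupport.intro (K := closedBall (z j) ρ) (isCompact_closedBall _ _) fun t ht => ?_
    apply h
    simp only [Pi.sub_apply, Pi.single_eq_same]
    rw [mem_closedBall, dist_comm, dist_eq_norm, not_le] at ht
    exact ht
  have := locallyIntegrable_ker1.integrable_smul_left_of_hasCompactSupport hc hs
  refine this.congr (Eventually.of_forall fun w => ?_)
  simp [mul_comm]

/-- `∂̄_k` commutes with the transform -/
theorem dzb_T {j : Fin 2} {ρ : ℝ} {g : C2 → ℂ} (hg : ContDiff ℝ ∞ g) (h : SuppIn j ρ g)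
    (k : Fin 2) (z : C2) : dzb k (T j g) z = T j (dzb k g) z := by
  have hI : ∀ v, Integrable fun t : ℂ => ker1 t * fderiv ℝ g (z - Pi.single j t) v := by
    intro v
    have h1 : Continuous fun y => fderiv ℝ g y v :=
      (hg.continuous_fderiv (by simp)).clm_apply continuous_const
    exact integrable_aux (ρ := ρ) h1 (fun y (hy : ρ < ‖y j‖) => by
      simp only [h.fderiv hy]; rfl) z
  rw [T_eq]
  unfold FL.dzb
  rw [fderiv_T_apply hg h, fderiv_T_apply hg h, smul_eq_mul, smul_eq_mul, ← integral_const_mul,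
    ← integral_add (hI _) ((hI _).const_mul _), ← integral_const_mul]
  congr 1
  funext t
  simp only [smul_eq_mul]
  ring

/-- `∂̄_j T_j = 1` -/
theorem dzb_T_self {j : Fin 2} {ρ : ℝ} {g : C2 → ℂ} (hg : ContDiff ℝ ∞ g) (h : SuppIn j ρ g)
    (z : C2) : dzb j (T j g) z = g z := by
  have h1 := dbv_cau2 (contDiff_sp_symm j hg) (isCompact_closedBall 0 ρ) h.cau (sp j z)
  simp only [ContinuousLinearEquiv.symm_apply_apply] at h1
  rw [← h1]
  unfold FL.dzb dbv
  rw [fderiv_T hg h, fderiv_T hg h, sp_single, sp_single]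
  simp

/-- total mass of the kernel on a disc -/
def mass (ρ : ℝ) : ℝ := ∫ t in closedBall (0 : ℂ) ρ, ‖ker1 t‖

theorem mass_nonneg (ρ : ℝ) : 0 ≤ mass ρ := integral_nonneg fun _ => norm_nonneg _

theorem integrableOn_ker (ρ : ℝ) : IntegrableOn (fun t => ‖ker1 t‖) (closedBall (0 : ℂ) ρ) :=
  ((locallyIntegrable_ker1.integrableOn_isCompact (isCompact_closedBall 0 ρ))).norm

/-- sup bound for the transform -/
theorem norm_T_le {j : Fin 2} {ρ A : ℝ} {g : C2 → ℂ} (h : SuppIn j ρ g) {z : C2}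
    (hz : ‖z j‖ ≤ ρ) (hA : 0 ≤ A) (hg : ∀ w : C2, w (1 - j) = z (1 - j) → ‖w j‖ ≤ ρ → ‖g w‖ ≤ A) :
    ‖T j g z‖ ≤ mass (2 * ρ) * A := by
  rw [T_eq, mass, ← integral_mul_const, ← integral_indicator measurableSet_closedBall]
  refine norm_integral_le_of_norm_le ?_ (Eventually.of_forall fun t => ?_)
  · rw [integrable_indicator_iff measurableSet_closedBall]
    exact (integrableOn_ker _).mul_const _
  · by_cases ht : t ∈ closedBall (0 : ℂ) (2 * ρ)
    · rw [indicator_of_mem ht, norm_mul]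
      gcongr
      by_cases h2 : ‖(z - Pi.single j t : C2) j‖ ≤ ρ
      · refine hg _ ?_ h2
        simp [Pi.single_eq_of_ne (other_ne j)]
      · rw [h _ (not_le.1 h2)]
        simpa using hA
    · rw [indicator_of_notMem ht, h, mul_zero, norm_zero]
      simp only [Pi.sub_apply, Pi.single_eq_same]
      rw [mem_closedBall, dist_zero_right, not_le] at ht
      have := norm_sub_norm_le t (z j)
      rw [norm_sub_rev] at this
      linarith

/-! ### cut-offs -/

/-- a bump function in one variable, `= 1` on `|ζ| ≤ a`, `= 0` for `|ζ| ≥ b` -/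
def bmp {a b : ℝ} (ha : 0 < a) (hab : a < b) : ContDiffBump (0 : ℂ) := ⟨a, b, ha, hab⟩

/-- the product cut-off `χ(z_0) χ(z_1)` -/
def cut (χ : ContDiffBump (0 : ℂ)) (z : C2) : ℂ := ((χ (z 0) * χ (z 1) : ℝ) : ℂ)

theorem cut_contDiff (χ : ContDiffBump (0 : ℂ)) : ContDiff ℝ ∞ (cut χ) := by
  have h0 : ContDiff ℝ ∞ (fun z : C2 => χ (z 0)) := χ.contDiff.comp (contDiff_apply ℝ ℂ 0)
  have h1 : ContDiff ℝ ∞ (fun z : C2 => χ (z 1)) := χ.contDiff.comp (contDiff_apply ℝ ℂ 1)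
  exact Complex.ofRealCLM.contDiff.comp (h0.mul h1)

theorem cut_eq_zero {χ : ContDiffBump (0 : ℂ)} {z : C2} (j : Fin 2) (h : χ.rOut ≤ ‖z j‖) :
    cut χ z = 0 := by
  have : χ (z j) = 0 := χ.zero_of_le_dist (by rwa [dist_zero_right])
  unfold cut
  fin_cases j <;> simp_all

theorem cut_eq_one {χ : ContDiffBump (0 : ℂ)} {z : C2} (h : ‖z‖ ≤ χ.rIn) : cut χ z = 1 := by
  have h0 : χ (z 0) = 1 := χ.one_of_mem_closedBall (by
    rw [mem_closedBall, dist_zero_right]; exact (norm_le_pi_norm z 0).trans h)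
  have h1 : χ (z 1) = 1 := χ.one_of_mem_closedBall (by
    rw [mem_closedBall, dist_zero_right]; exact (norm_le_pi_norm z 1).trans h)
  simp [cut, h0, h1]

theorem norm_cut_le (χ : ContDiffBump (0 : ℂ)) (z : C2) : ‖cut χ z‖ ≤ 1 := by
  unfold cut
  rw [Complex.norm_real, Real.norm_eq_abs, abs_mul, abs_of_nonneg χ.nonneg, abs_of_nonneg χ.nonneg]
  have := χ.le_one (x := z 0)
  have := χ.le_one (x := z 1)
  have := χ.nonneg (x := z 0)
  nlinarith [χ.nonneg (x := z 1)]

theorem cut_suppIn (χ : ContDiffBump (0 : ℂ)) (j : Fin 2) : SuppIn j χ.rOut (cut χ) :=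
  fun _ hz => cut_eq_zero j hz.le

/-- extension by zero of `χ f` -/
theorem contDiff_cut_mul {χ : ContDiffBump (0 : ℂ)} {R : ℝ} (hR : χ.rOut < R) {f : C2 → ℂ}
    (hf : ContDiffOn ℝ ∞ f (ball 0 R)) {ψ : C2 → ℂ} (hψ : ContDiff ℝ ∞ ψ)
    (h0 : ∀ j, SuppIn j χ.rOut ψ) : ContDiff ℝ ∞ fun z => ψ z * f z := by
  rw [contDiff_iff_contDiffAt]
  intro z
  by_cases hz : ‖z‖ < R
  · exact hψ.contDiffAt.mul (hf.contDiffAt (isOpen_ball.mem_nhds (by simpa using hz)))
  · have : ∃ j, χ.rOut < ‖z j‖ := by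
      by_contra hcon
      push Not at hcon
      have : ‖z‖ ≤ χ.rOut := (pi_norm_le_iff_of_nonneg χ.rOut_pos.le).2 hcon
      linarith
    obtain ⟨j, hj⟩ := this
    have hev : ∀ᶠ y : C2 in 𝓝 z, χ.rOut < ‖y j‖ :=
      (continuous_apply j).norm.continuousAt.eventually (isOpen_Ioi.mem_nhds hj)
    refine (contDiffAt_const (c := (0 : ℂ))).congr_of_eventuallyEq ?_
    filter_upwards [hev] with y hy
    rw [h0 j y hy, zero_mul]

theorem fderiv_cut_single {χ : ContDiffBump (0 : ℂ)} {j : Fin 2} {z : C2} (h : ‖z j‖ < χ.rIn)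
    (c : ℂ) : fderiv ℝ (cut χ) z (Pi.single j c) = 0 := by
  have hcn : Continuous fun y : C2 => ‖y j‖ := (continuous_apply j).norm
  have hev : ∀ᶠ y : C2 in 𝓝 z, ‖y j‖ < χ.rIn :=
    hcn.continuousAt.eventually (isOpen_Iio.mem_nhds h)
  have h1 : cut χ =ᶠ[𝓝 z] fun y => ((χ (y (1 - j)) : ℝ) : ℂ) := by
    filter_upwards [hev] with y hy
    have : χ (y j) = 1 := χ.one_of_mem_closedBall (by
      rw [mem_closedBall, dist_zero_right]; exact hy.le)
    unfold cut
    fin_cases j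
    · have h2 : χ (y 0) = 1 := this
      simp [h2]
    · have h2 : χ (y 1) = 1 := this
      simp [h2]
  rw [h1.fderiv_eq]
  have hG : ContDiff ℝ ∞ fun ζ : ℂ => ((χ ζ : ℝ) : ℂ) := Complex.ofRealCLM.contDiff.comp χ.contDiff
  have h2 : HasFDerivAt (fun y : C2 => y (1 - j))
      (ContinuousLinearMap.proj (R := ℝ) (φ := fun _ : Fin 2 => ℂ) (1 - j)) z :=
    (ContinuousLinearMap.proj (R := ℝ) (φ := fun _ : Fin 2 => ℂ) (1 - j)).hasFDerivAt
  have h3 := ((hG.differentiable (by simp)) (z (1 - j))).hasFDerivAt.comp z h2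
  have h4 : fderiv ℝ (fun y : C2 => ((χ (y (1 - j)) : ℝ) : ℂ)) z = _ := h3.fderiv
  rw [h4]
  simp [Pi.single_eq_of_ne (other_ne j)]

theorem dzb_cut {χ : ContDiffBump (0 : ℂ)} {j : Fin 2} {z : C2} (h : ‖z j‖ < χ.rIn) :
    dzb j (cut χ) z = 0 := by
  unfold FL.dzb
  rw [fderiv_cut_single h, fderiv_cut_single h]
  simp

theorem contDiff_dzb {f : C2 → ℂ} (hf : ContDiff ℝ ∞ f) (j : Fin 2) : ContDiff ℝ ∞ (dzb j f) := by
  have := contDiffOn_dzb (m := ∞) (n := ∞) isOpen_univ hf.contDiffOn (by simp) j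
  rwa [contDiffOn_univ] at this

theorem exists_bound_dzb_cut (χ : ContDiffBump (0 : ℂ)) :
    ∃ B, 0 ≤ B ∧ ∀ z j, ‖dzb j (cut χ) z‖ ≤ B := by
  have h : ∀ j, ∃ B, ∀ z, ‖dzb j (cut χ) z‖ ≤ B := by
    intro j
    have hc : Continuous (dzb j (cut χ)) := (contDiff_dzb (cut_contDiff χ) j).continuous
    have hs : HasCompactSupport (dzb j (cut χ)) := by
      refine HasCompactSupport.intro (K := closedBall 0 χ.rOut) (isCompact_closedBall _ _) ?_
      intro z hz
      have : ∃ i, χ.rOut < ‖z i‖ := by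
        by_contra hcon
        push Not at hcon
        refine hz ?_
        rw [mem_closedBall, dist_zero_right]
        exact (pi_norm_le_iff_of_nonneg χ.rOut_pos.le).2 hcon
      obtain ⟨i, hi⟩ := this
      exact (cut_suppIn χ i).dzb j z hi
    exact hc.bounded_above_of_compact_support hs
  obtain ⟨B0, h0⟩ := h 0
  obtain ⟨B1, h1⟩ := h 1
  refine ⟨max 0 (max B0 B1), le_max_left _ _, fun z j => ?_⟩
  fin_cases j
  · exact (h0 z).trans ((le_max_left _ _).trans (le_max_right _ _))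
  · exact (h1 z).trans ((le_max_right _ _).trans (le_max_right _ _))

theorem T_sub {j : Fin 2} {ρ : ℝ} {f g : C2 → ℂ} (hf : Continuous f) (hfs : SuppIn j ρ f)
    (hg : Continuous g) (hgs : SuppIn j ρ g) (z : C2) :
    T j (fun w => f w - g w) z = T j f z - T j g z := by
  rw [T_eq, T_eq, T_eq, ← integral_sub (integrable_aux hf hfs z) (integrable_aux hg hgs z)]
  congr 1
  funext t
  ring

theorem T_congr {j : Fin 2} {f g : C2 → ℂ} {z : C2} (h : ∀ w : C2, w (1 - j) = z (1 - j) → f w = g w) :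
    T j f z = T j g z := by
  rw [T_eq, T_eq]
  congr 1
  funext t
  rw [h]
  simp [Pi.single_eq_of_ne (other_ne j)]

theorem T_eq_zero {j : Fin 2} {f : C2 → ℂ} {z : C2} (h : ∀ w : C2, w (1 - j) = z (1 - j) → f w = 0) :
    T j f z = 0 := by
  rw [T_congr (g := fun _ => 0) h, T_eq]
  simp

theorem SuppIn.mul {j : Fin 2} {ρ : ℝ} {f : C2 → ℂ} (h : SuppIn j ρ f) (g : C2 → ℂ) :
    SuppIn j ρ fun z => f z * g z := fun z hz => by simp only [h z hz, zero_mul]

theorem dzb_mul' {f g : C2 → ℂ} {z : C2} (hf : DifferentiableAt ℝ f z)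
    (hg : DifferentiableAt ℝ g z) (j : Fin 2) :
    dzb j (fun y => f y * g y) z = f z * dzb j g z + dzb j f z * g z := dzb_mul hf hg j

/-- the `∂̄`-lemma in degree `(0,1)` on polydiscs centred at `0` -/
theorem dbar_one_zero {r R : ℝ} (hr : 0 < r) (hrR : r < R) :
    ∃ C, 0 ≤ C ∧ ∀ (α : C2 → Fin 2 → ℂ) (A : ℝ), 0 ≤ A →
      (∀ i, ContDiffOn ℝ ∞ (fun z => α z i) (ball 0 R)) →
      (∀ z ∈ ball (0 : C2) R, dzb 0 (fun w => α w 1) z = dzb 1 (fun w => α w 0) z) →
      (∀ z ∈ ball (0 : C2) R, ∀ i, ‖α z i‖ ≤ A) →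
      ∃ φ : C2 → ℂ, ContDiff ℝ ∞ φ ∧ (∀ z ∈ ball (0 : C2) r, ∀ i, dzb i φ z = α z i) ∧
        ∀ z ∈ ball (0 : C2) r, ‖φ z‖ ≤ C * A := by
  have h1 : 0 < (2 * r + R) / 3 := by linarith
  have h2 : (2 * r + R) / 3 < (r + 2 * R) / 3 := by linarith
  set χ := bmp h1 h2 with hχ
  have hin : χ.rIn = (2 * r + R) / 3 := rfl
  have hout : χ.rOut = (r + 2 * R) / 3 := rfl
  have hrin : r < χ.rIn := by rw [hin]; linarith
  have hio : χ.rIn < χ.rOut := by rw [hin, hout]; linarith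
  have houtR : χ.rOut < R := by rw [hout]; linarith
  obtain ⟨B, hB0, hB⟩ := exists_bound_dzb_cut χ
  set m := mass (2 * χ.rOut) with hm
  have hm0 : 0 ≤ m := mass_nonneg _
  refine ⟨m + m * (m * B), by positivity, fun α A hA hα hcl hbd => ?_⟩
  set ψ := cut χ with hψ
  have hψc : ContDiff ℝ ∞ ψ := cut_contDiff χ
  have hψs : ∀ j, SuppIn j χ.rOut ψ := cut_suppIn χ
  -- the pieces
  have hg : ∀ i, ContDiff ℝ ∞ fun z => ψ z * α z i := fun i =>
    contDiff_cut_mul houtR (hα i) hψc hψs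
  have hgs : ∀ i j, SuppIn j χ.rOut fun z => ψ z * α z i := fun i j => (hψs j).mul _
  have hb : ContDiff ℝ ∞ fun z => dzb 0 ψ z * α z 1 :=
    contDiff_cut_mul houtR (hα 1) (contDiff_dzb hψc 0) fun j => (hψs j).dzb 0
  have hbs : ∀ j, SuppIn j χ.rOut fun z => dzb 0 ψ z * α z 1 := fun j => ((hψs j).dzb 0).mul _
  set β := T 0 (fun z => dzb 0 ψ z * α z 1) with hβ
  have hβc : ContDiff ℝ ∞ β := T_contDiff hb (hbs 0)
  have hk : ContDiff ℝ ∞ fun z => ψ z * β z := hψc.mul hβc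
  have hks : ∀ j, SuppIn j χ.rOut fun z => ψ z * β z := fun j => (hψs j).mul _
  set u := T 0 (fun z => ψ z * α z 0) with hu
  set v := T 1 (fun z => ψ z * β z) with hv
  have huc : ContDiff ℝ ∞ u := T_contDiff (hg 0) (hgs 0 0)
  have hvc : ContDiff ℝ ∞ v := T_contDiff hk (hks 1)
  have hψ1 : ∀ z ∈ ball (0 : C2) χ.rIn, ψ z = 1 := fun z hz =>
    cut_eq_one (by simpa using (mem_ball_zero_iff.1 hz).le)
  have hdz0 : ∀ (z : C2), ‖z 0‖ < χ.rIn → dzb 0 (fun y => ψ y * β y) z = 0 := by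
    intro z hz
    rw [dzb_mul' (hψc.differentiable (by simp) z) (hβc.differentiable (by simp) z), hβ,
      dzb_T_self hb (hbs 0)]
    simp [hψ, dzb_cut hz]
  have hnorm : ∀ z ∈ ball (0 : C2) r, ∀ j, ‖z j‖ < χ.rIn := fun z hz j =>
    ((norm_le_pi_norm z j).trans_lt (by simpa using hz)).trans hrin
  have e0 : ∀ z ∈ ball (0 : C2) r, dzb 0 u z = α z 0 := by
    intro z hz
    rw [hu, dzb_T_self (hg 0) (hgs 0 0), hψ1 z (ball_subset_ball hrin.le hz), one_mul]
  have e1 : ∀ z ∈ ball (0 : C2) r, dzb 0 v z = 0 := by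
    intro z hz
    rw [hv, dzb_T hk (hks 1)]
    refine T_eq_zero fun w hw => ?_
    apply hdz0
    have hw' : w 0 = z 0 := by simpa using hw
    rw [hw']
    exact hnorm z hz 0
  have e2 : ∀ z ∈ ball (0 : C2) r, dzb 1 v z = β z := by
    intro z hz
    rw [hv, dzb_T_self hk (hks 1), hψ1 z (ball_subset_ball hrin.le hz), one_mul]
  have e3 : ∀ z ∈ ball (0 : C2) r, dzb 1 u z = α z 1 - β z := by
    intro z hz
    rw [hu, dzb_T (hg 0) (hgs 0 0)]
    have key : ∀ w : C2, w (1 - 0) = z (1 - 0) → dzb 1 (fun z => ψ z * α z 0) w =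
        dzb 0 (fun z => ψ z * α z 1) w - dzb 0 ψ w * α w 1 := by
      intro w hw
      have hw' : w 1 = z 1 := by simpa using hw
      have hw1 : ‖w 1‖ < χ.rIn := by rw [hw']; exact hnorm z hz 1
      by_cases hw0 : ‖w 0‖ < R
      · have hwR : w ∈ ball (0 : C2) R := by
          rw [mem_ball_zero_iff, pi_norm_lt_iff (by linarith)]
          intro i
          fin_cases i
          · exact hw0
          · exact hw1.trans (hio.trans houtR)
        have hd : ∀ i, DifferentiableAt ℝ (fun z => α z i) w := fun i =>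
          ((hα i).contDiffAt (isOpen_ball.mem_nhds hwR)).differentiableAt (by simp)
        have hψd := hψc.differentiable (by simp) w
        rw [dzb_mul' hψd (hd 0), dzb_mul' hψd (hd 1), hcl w hwR, hψ, dzb_cut hw1]
        ring
      · have hw2 : χ.rOut < ‖w 0‖ := by linarith
        rw [(hgs 0 0).dzb 1 w hw2, (hgs 1 0).dzb 0 w hw2, (hψs 0).dzb 0 w hw2]
        ring
    rw [T_congr key, T_sub (contDiff_dzb (hg 1) 0).continuous ((hgs 1 0).dzb 0) hb.continuous
      (hbs 0), ← dzb_T (hg 1) (hgs 1 0), dzb_T_self (hg 1) (hgs 1 0),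
      hψ1 z (ball_subset_ball hrin.le hz), one_mul]
  refine ⟨fun z => u z + v z, huc.add hvc, ?_, ?_⟩
  · intro z hz i
    rw [dzb_add (huc.differentiable (by simp) z) (hvc.differentiable (by simp) z)]
    fin_cases i
    · change dzb 0 u z + dzb 0 v z = α z 0
      rw [e0 z hz, e1 z hz, add_zero]
    · change dzb 1 u z + dzb 1 v z = α z 1
      rw [e2 z hz, e3 z hz]
      ring
  · -- bounds
    have hsupp : ∀ w : C2, (¬ w ∈ ball (0 : C2) R) → ∃ j, χ.rOut < ‖w j‖ := by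
      intro w hw
      by_contra hcon
      push Not at hcon
      refine hw ?_
      rw [mem_ball_zero_iff]
      exact ((pi_norm_le_iff_of_nonneg χ.rOut_pos.le).2 hcon).trans_lt houtR
    have b1 : ∀ w i, ‖ψ w * α w i‖ ≤ A := by
      intro w i
      by_cases hw : w ∈ ball (0 : C2) R
      · rw [norm_mul]
        calc ‖ψ w‖ * ‖α w i‖ ≤ 1 * A := by
              gcongr
              · exact norm_cut_le χ w
              · exact hbd w hw i
          _ = A := one_mul A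
      · obtain ⟨j, hj⟩ := hsupp w hw
        rw [hψs j w hj]
        simpa using hA
    have b2 : ∀ w, ‖dzb 0 ψ w * α w 1‖ ≤ B * A := by
      intro w
      by_cases hw : w ∈ ball (0 : C2) R
      · rw [norm_mul]
        gcongr
        · exact hB w 0
        · exact hbd w hw 1
      · obtain ⟨j, hj⟩ := hsupp w hw
        rw [(hψs j).dzb 0 w hj]
        simpa using mul_nonneg hB0 hA
    have b3 : ∀ w : C2, ‖w 0‖ ≤ χ.rOut → ‖β w‖ ≤ m * (B * A) := fun w hw =>
      norm_T_le (hbs 0) hw (by positivity) fun y _ _ => b2 y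
    have b4 : ∀ w, ‖ψ w * β w‖ ≤ m * (B * A) := by
      intro w
      by_cases hw : ‖w 0‖ ≤ χ.rOut
      · rw [norm_mul]
        calc ‖ψ w‖ * ‖β w‖ ≤ 1 * (m * (B * A)) := by
              gcongr
              · exact norm_cut_le χ w
              · exact b3 w hw
          _ = _ := one_mul _
      · rw [hψs 0 w (not_le.1 hw)]
        simp only [zero_mul, norm_zero]
        positivity
    intro z hz
    have hz0 : ∀ j, ‖z j‖ ≤ χ.rOut := fun j => (hnorm z hz j).le.trans hio.le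
    calc ‖u z + v z‖ ≤ ‖u z‖ + ‖v z‖ := norm_add_le _ _
      _ ≤ m * A + m * (m * (B * A)) := by
          gcongr
          · exact norm_T_le (hgs 0 0) (hz0 0) hA fun y _ _ => b1 y 0
          · exact norm_T_le (hks 1) (hz0 1) (by positivity) fun y _ _ => b4 y
      _ = (m + m * (m * B)) * A := by ring

theorem dzb_sub_const (f : C2 → ℂ) (c z : C2) (j : Fin 2) :
    dzb j (fun y => f (y - c)) z = dzb j f (z - c) := by
  unfold FL.dzb
  rw [fderiv_comp_sub]

theorem dzb_add_const (f : C2 → ℂ) (c z : C2) (j : Fin 2) :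
    dzb j (fun y => f (y + c)) z = dzb j f (z + c) := by
  unfold FL.dzb
  rw [fderiv_comp_add_right]

/-- **(F1), degree one.** The `∂̄`-lemma on polydiscs with a sup bound. -/
theorem exists_dbar_one {r R : ℝ} (hr : 0 < r) (hrR : r < R) :
    ∃ C, 0 ≤ C ∧ ∀ (c : C2) (α : C2 → Fin 2 → ℂ) (A : ℝ), 0 ≤ A →
      (∀ i, ContDiffOn ℝ ∞ (fun z => α z i) (ball c R)) →
      (∀ z ∈ ball c R, dzb 0 (fun w => α w 1) z = dzb 1 (fun w => α w 0) z) →
      (∀ z ∈ ball c R, ∀ i, ‖α z i‖ ≤ A) →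
      ∃ φ : C2 → ℂ, ContDiff ℝ ∞ φ ∧ (∀ z ∈ ball c r, ∀ i, dzb i φ z = α z i) ∧
        ∀ z ∈ ball c r, ‖φ z‖ ≤ C * A := by
  obtain ⟨C, hC0, hC⟩ := dbar_one_zero hr hrR
  refine ⟨C, hC0, fun c α A hA hα hcl hbd => ?_⟩
  have hmem : ∀ {ρ : ℝ} {z : C2}, z ∈ ball (0 : C2) ρ ↔ z + c ∈ ball c ρ := by
    intro ρ z; simp
  have hmem' : ∀ {ρ : ℝ} {z : C2}, z ∈ ball c ρ ↔ z - c ∈ ball (0 : C2) ρ := by
    intro ρ z; simp [dist_eq_norm]
  obtain ⟨φ, h1, h2, h3⟩ := hC (fun z => α (z + c)) A hA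
    (fun i => (hα i).comp (by fun_prop : ContDiff ℝ ∞ fun z : C2 => z + c).contDiffOn
      fun z hz => hmem.1 hz)
    (fun z hz => by
      have h := hcl (z + c) (hmem.1 hz)
      rw [← dzb_add_const (fun w => α w 1) c z 0, ← dzb_add_const (fun w => α w 0) c z 1] at h
      exact h)
    (fun z hz i => hbd _ (hmem.1 hz) i)
  refine ⟨fun z => φ (z - c), h1.comp (by fun_prop), fun z hz i => ?_, fun z hz => h3 _ (hmem'.1 hz)⟩
  rw [dzb_sub_const, h2 _ (hmem'.1 hz)]
  simp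

/-- **(F1), degree two.** -/
theorem exists_dbar_two {r R : ℝ} (hr : 0 < r) (hrR : r < R) :
    ∃ C, 0 ≤ C ∧ ∀ (c : C2) (b : C2 → ℂ) (A : ℝ), 0 ≤ A →
      ContDiffOn ℝ ∞ b (ball c R) → (∀ z ∈ ball c R, ‖b z‖ ≤ A) →
      ∃ a : C2 → Fin 2 → ℂ, (∀ i, ContDiff ℝ ∞ fun z => a z i) ∧
        (∀ z ∈ ball c r, dzb 0 (fun w => a w 1) z - dzb 1 (fun w => a w 0) z = b z) ∧
        ∀ z ∈ ball c r, ∀ i, ‖a z i‖ ≤ C * A := by
  have h1 : 0 < (2 * r + R) / 3 := by linarith
  have h2 : (2 * r + R) / 3 < (r + 2 * R) / 3 := by linarith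
  set χ := bmp h1 h2 with hχ
  have hin : χ.rIn = (2 * r + R) / 3 := rfl
  have hout : χ.rOut = (r + 2 * R) / 3 := rfl
  have hrin : r < χ.rIn := by rw [hin]; linarith
  have hio : χ.rIn < χ.rOut := by rw [hin, hout]; linarith
  have houtR : χ.rOut < R := by rw [hout]; linarith
  refine ⟨mass (2 * χ.rOut), mass_nonneg _, fun c b A hA hb hbd => ?_⟩
  have hmem : ∀ {ρ : ℝ} {z : C2}, z ∈ ball (0 : C2) ρ ↔ z + c ∈ ball c ρ := by
    intro ρ z; simp
  have hmem' : ∀ {ρ : ℝ} {z : C2}, z ∈ ball c ρ ↔ z - c ∈ ball (0 : C2) ρ := by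
    intro ρ z; simp [dist_eq_norm]
  have hb0 : ContDiffOn ℝ ∞ (fun z => b (z + c)) (ball 0 R) :=
    hb.comp (by fun_prop : ContDiff ℝ ∞ fun z : C2 => z + c).contDiffOn fun z hz => hmem.1 hz
  have hg : ContDiff ℝ ∞ fun z => cut χ z * b (z + c) :=
    contDiff_cut_mul houtR hb0 (cut_contDiff χ) (cut_suppIn χ)
  have hgs : ∀ j, SuppIn j χ.rOut fun z => cut χ z * b (z + c) := fun j => (cut_suppIn χ j).mul _
  have hTc : ContDiff ℝ ∞ (T 0 fun z => cut χ z * b (z + c)) := T_contDiff hg (hgs 0)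
  refine ⟨fun z i => if i = 1 then T 0 (fun z => cut χ z * b (z + c)) (z - c) else 0, ?_, ?_, ?_⟩
  · intro i
    by_cases hi : i = 1
    · simp only [hi, if_true]
      exact hTc.comp (by fun_prop)
    · simp only [hi, if_false]
      exact contDiff_const
  · intro z hz
    simp only [if_true, if_neg (by decide : ¬ (0 : Fin 2) = 1)]
    rw [dzb_sub_const, dzb_T_self hg (hgs 0), FL.dzb_const,
      cut_eq_one (by
        have := mem_ball_zero_iff.1 (hmem'.1 hz)
        linarith)]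
    simp
  · intro z hz i
    have hz' := hmem'.1 hz
    have hb1 : ∀ w, ‖cut χ w * b (w + c)‖ ≤ A := by
      intro w
      by_cases hw : w ∈ ball (0 : C2) R
      · rw [norm_mul]
        calc ‖cut χ w‖ * ‖b (w + c)‖ ≤ 1 * A := by
              gcongr
              · exact norm_cut_le χ w
              · exact hbd _ (hmem.1 hw)
          _ = A := one_mul A
      · have : ∃ j, χ.rOut < ‖w j‖ := by
          by_contra hcon
          push Not at hcon
          refine hw ?_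
          rw [mem_ball_zero_iff]
          exact ((pi_norm_le_iff_of_nonneg χ.rOut_pos.le).2 hcon).trans_lt houtR
        obtain ⟨j, hj⟩ := this
        rw [cut_suppIn χ j w hj]
        simpa using hA
    by_cases hi : i = 1
    · simp only [hi, if_true]
      refine norm_T_le (hgs 0) ?_ hA fun y _ _ => hb1 y
      have := norm_le_pi_norm (z - c) 0
      have := mem_ball_zero_iff.1 hz'
      linarith
    · simp only [hi, if_false, norm_zero]
      exact mul_nonneg (mass_nonneg _) hA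

end Vale.Agent.P267.H181
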